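import Vale.Agent.P181.R2.H207.KDefs

/-! P181, row K8 (Jensen). -/

set_option autoImplicit false

namespace Vale.Agent.P181.KT

open Finset

theorem k8 : ∀ {m c : ℕ} (η ζ x : Fin m → ℝ) {r : ℝ}, 1 ≤ r → 0 < ZZ m c η →
    (ZZ m c (η + ζ) * Real.exp (-∑ i, ζ i * x i) / ZZ m c η) ^ r ≤
      ZZ m c (η + r • ζ) * Real.exp (-(r * ∑ i, ζ i * x i)) / ZZ m c η := by
  intro m c η ζ x r hr hZ
  have key := Real.rpow_arith_mean_le_arith_mean_rpow (Mn m c)
    (fun u => Real.exp (∑ i, η i * (u i : ℝ)) / ZZ m c η)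
    (fun u => Real.exp ((∑ i, ζ i * (u i : ℝ)) - ∑ i, ζ i * x i))
    (fun u _ => div_nonneg (Real.exp_pos _).le hZ.le)
    (by rw [← Finset.sum_div]; exact div_self hZ.ne')
    (fun u _ => (Real.exp_pos _).le) hr
  have e1 : ∑ u ∈ Mn m c, Real.exp (∑ i, η i * (u i : ℝ)) / ZZ m c η *
      Real.exp ((∑ i, ζ i * (u i : ℝ)) - ∑ i, ζ i * x i) =
      ZZ m c (η + ζ) * Real.exp (-∑ i, ζ i * x i) / ZZ m c η := by
    rw [show ZZ m c (η + ζ) = ∑ u ∈ Mn m c, Real.exp (∑ i, (η + ζ) i * (u i : ℝ)) from rfl,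
      Finset.sum_mul, Finset.sum_div]
    refine Finset.sum_congr rfl fun u _ => ?_
    rw [div_mul_eq_mul_div, ← Real.exp_add, ← Real.exp_add]
    congr 2
    simp only [Pi.add_apply, add_mul, Finset.sum_add_distrib]
    ring
  have e2 : ∑ u ∈ Mn m c, Real.exp (∑ i, η i * (u i : ℝ)) / ZZ m c η *
      Real.exp ((∑ i, ζ i * (u i : ℝ)) - ∑ i, ζ i * x i) ^ r =
      ZZ m c (η + r • ζ) * Real.exp (-(r * ∑ i, ζ i * x i)) / ZZ m c η := by
    rw [show ZZ m c (η + r • ζ) = ∑ u ∈ Mn m c, Real.exp (∑ i, (η + r • ζ) i * (u i : ℝ)) from rfl,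
      Finset.sum_mul, Finset.sum_div]
    refine Finset.sum_congr rfl fun u _ => ?_
    rw [div_mul_eq_mul_div, ← Real.exp_mul, ← Real.exp_add, ← Real.exp_add]
    congr 2
    simp only [Pi.add_apply, Pi.smul_apply, smul_eq_mul, add_mul, Finset.sum_add_distrib,
      mul_assoc, ← Finset.mul_sum]
    ring
  rw [← e1, ← e2]
  exact key

end Vale.Agent.P181.KT
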