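import Vale.Agent.P181.R2.H959.FParts

/-! P181.FewRowsInterior, row T6: partitions with a small gap are rare. -/

set_option autoImplicit false

namespace Vale.Agent.P181.FR

namespace CG

theorem count_two {m s G : ℕ} (p q : Fin m) (hpq : p ≠ q) (T : Finset (Fin m → Fin (s + 1)))
    (code : (Fin m → Fin (s + 1)) → ℕ) (hc : ∀ lam ∈ T, code lam < G)
    (hi : ∀ lam ∈ T, ∀ lam' ∈ T, code lam = code lam' →
      (∀ j, j ≠ p → j ≠ q → lam j = lam' j) → lam = lam') :
    T.card ≤ G * (s + 1) ^ (m - 2) := by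
  classical
  have h := Finset.card_le_card_of_injOn (s := T)
    (t := Finset.range G ×ˢ Fintype.piFinset
      (fun j : Fin m => if j = p ∨ j = q then ({0} : Finset (Fin (s + 1))) else Finset.univ))
    (fun lam => (code lam, fun j => if j = p ∨ j = q then 0 else lam j))
    (by
      intro lam hlam
      rw [Finset.mem_coe, Finset.mem_product, Finset.mem_range, Fintype.mem_piFinset]
      refine ⟨hc lam hlam, fun j => ?_⟩
      by_cases hj : j = p ∨ j = q
      · simp only [if_pos hj, Finset.mem_singleton]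
      · simp only [if_neg hj, Finset.mem_univ])
    (by
      intro lam hlam lam' hlam' he
      have h1 := congrArg Prod.fst he
      have h2 := congrArg Prod.snd he
      refine hi lam hlam lam' hlam' h1 fun j hjp hjq => ?_
      have h3 := congrFun h2 j
      have hj : ¬ (j = p ∨ j = q) := fun hj => hj.elim hjp hjq
      simp only [if_neg hj] at h3
      exact h3)
  refine h.trans (le_of_eq ?_)
  rw [Finset.card_product, Finset.card_range, Fintype.card_piFinset]
  congr 1
  have e : ∀ j : Fin m, (if j = p ∨ j = q then ({0} : Finset (Fin (s + 1))) else Finset.univ).card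
      = if j = p ∨ j = q then 1 else s + 1 := by
    intro j
    split_ifs
    · exact Finset.card_singleton _
    · rw [Finset.card_univ, Fintype.card_fin]
  rw [Finset.prod_congr rfl fun j _ => e j, Finset.prod_ite, Finset.prod_const_one, one_mul,
    Finset.prod_const]
  congr 1
  have e2 : Finset.univ.filter (fun j : Fin m => ¬ (j = p ∨ j = q)) = ({p, q} : Finset (Fin m))ᶜ := by
    ext j
    simp
  rw [e2, Finset.card_compl, Fintype.card_fin, Finset.card_pair hpq]

theorem mem_Parts {m s : ℕ} (lam : Fin m → Fin (s + 1)) :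
    lam ∈ Parts m s ↔ (∀ i j, i ≤ j → lam j ≤ lam i) ∧ ∑ i, (lam i : ℕ) = s := by
  unfold Parts
  rw [Finset.mem_filter]
  exact ⟨fun h => h.2, fun h => ⟨Finset.mem_univ _, h⟩⟩

/-- Sums over all indices but two. -/
theorem sum_two {m : ℕ} (p q : Fin m) (hpq : p ≠ q) (f : Fin m → ℕ) :
    ∑ i, f i = f p + f q + ∑ i ∈ ({p, q} : Finset (Fin m))ᶜ, f i := by
  rw [← Finset.sum_pair hpq, Finset.sum_add_sum_compl]

theorem sum_eq {m s : ℕ} (p q : Fin m) (hpq : p ≠ q) (lam lam' : Fin m → Fin (s + 1))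
    (h : ∀ j, j ≠ p → j ≠ q → lam j = lam' j) (h1 : ∑ i, (lam i : ℕ) = s)
    (h2 : ∑ i, (lam' i : ℕ) = s) :
    (lam p : ℕ) + lam q = lam' p + lam' q := by
  rw [sum_two p q hpq] at h1 h2
  have e : ∑ i ∈ ({p, q} : Finset (Fin m))ᶜ, (lam i : ℕ) =
      ∑ i ∈ ({p, q} : Finset (Fin m))ᶜ, (lam' i : ℕ) := by
    refine Finset.sum_congr rfl fun j hj => ?_
    rw [Finset.mem_compl, Finset.mem_insert, Finset.mem_singleton, not_or] at hj
    rw [h j hj.1 hj.2]
  omega

theorem ext_two {m s : ℕ} (p q : Fin m) (lam lam' : Fin m → Fin (s + 1))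
    (h : ∀ j, j ≠ p → j ≠ q → lam j = lam' j) (hp : (lam p : ℕ) = lam' p)
    (hq : (lam q : ℕ) = lam' q) : lam = lam' := by
  funext j
  by_cases hjp : j = p
  · rw [hjp]
    exact Fin.ext hp
  · by_cases hjq : j = q
    · rw [hjq]
      exact Fin.ext hq
    · exact h j hjp hjq

theorem count_mid {n s G : ℕ} (i : Fin (n + 2)) :
    ((Parts (n + 3) s).filter (fun lam => (lam i.castSucc : ℕ) < lam i.succ + G)).card ≤
      G * (s + 1) ^ (n + 1) := by
  have hpq : i.castSucc ≠ i.succ := ne_of_lt i.castSucc_lt_succ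
  refine count_two i.castSucc i.succ hpq _ (fun lam => (lam i.castSucc : ℕ) - lam i.succ) ?_ ?_
  · intro lam hlam
    rw [Finset.mem_filter, mem_Parts] at hlam
    have h1 : lam i.succ ≤ lam i.castSucc := hlam.1.1 _ _ (le_of_lt i.castSucc_lt_succ)
    have h2 : (lam i.succ : ℕ) ≤ lam i.castSucc := h1
    have h3 := hlam.2
    show (lam i.castSucc : ℕ) - lam i.succ < G
    omega
  · intro lam hlam lam' hlam' hcode h
    rw [Finset.mem_filter, mem_Parts] at hlam hlam'
    have h1 : (lam i.succ : ℕ) ≤ lam i.castSucc := hlam.1.1 _ _ (le_of_lt i.castSucc_lt_succ)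
    have h1' : (lam' i.succ : ℕ) ≤ lam' i.castSucc := hlam'.1.1 _ _ (le_of_lt i.castSucc_lt_succ)
    have h2 := sum_eq i.castSucc i.succ hpq lam lam' h hlam.1.2 hlam'.1.2
    have h3 : (lam i.castSucc : ℕ) - lam i.succ = lam' i.castSucc - lam' i.succ := hcode
    exact ext_two i.castSucc i.succ lam lam' h (by omega) (by omega)

theorem count_last {n s G : ℕ} :
    ((Parts (n + 3) s).filter (fun lam => (lam (Fin.last _) : ℕ) < G)).card ≤
      G * (s + 1) ^ (n + 1) := by
  have hpq : (0 : Fin (n + 3)) ≠ Fin.last _ := ne_of_lt (Fin.last_pos)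
  refine count_two 0 (Fin.last _) hpq _ (fun lam => (lam (Fin.last _) : ℕ)) ?_ ?_
  · intro lam hlam
    rw [Finset.mem_filter] at hlam
    exact hlam.2
  · intro lam hlam lam' hlam' hcode h
    rw [Finset.mem_filter, mem_Parts] at hlam hlam'
    have h2 := sum_eq 0 (Fin.last _) hpq lam lam' h hlam.1.2 hlam'.1.2
    have h3 : (lam (Fin.last _) : ℕ) = lam' (Fin.last _) := hcode
    exact ext_two 0 (Fin.last _) lam lam' h (by omega) h3

/-- The lower bound. -/
theorem count_all {n s t : ℕ} (ht : (n + 3) ^ 2 * t ≤ s) :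
    (t + 1) ^ (n + 2) ≤ (Parts (n + 3) s).card := by
  classical
  have hv : ∀ (u : Fin (n + 2) → Fin (t + 1)) (j : Fin (n + 2)),
      (n + 1 - (j : ℕ)) * t + u j ≤ (n + 2) * t := by
    intro u j
    have h1 : (n + 1 - (j : ℕ)) * t ≤ (n + 1) * t := Nat.mul_le_mul_right _ (Nat.sub_le _ _)
    have h2 : (u j : ℕ) ≤ t := Nat.le_of_lt_succ (u j).2
    have h3 : (n + 2) * t = (n + 1) * t + t := by ring
    omega
  have hS : ∀ u : Fin (n + 2) → Fin (t + 1),
      ∑ j : Fin (n + 2), ((n + 1 - (j : ℕ)) * t + u j) ≤ (n + 2) * ((n + 2) * t) := by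
    intro u
    have := Finset.sum_le_card_nsmul (Finset.univ : Finset (Fin (n + 2)))
      (fun j => (n + 1 - (j : ℕ)) * t + u j) ((n + 2) * t) fun j _ => hv u j
    rwa [Finset.card_univ, Fintype.card_fin, smul_eq_mul] at this
  have hs : (n + 2) * ((n + 2) * t) + (n + 2) * t ≤ s := by nlinarith
  let L : (Fin (n + 2) → Fin (t + 1)) → Fin (n + 3) → ℕ := fun u =>
    Fin.cons (s - ∑ j : Fin (n + 2), ((n + 1 - (j : ℕ)) * t + u j))
      (fun j => (n + 1 - (j : ℕ)) * t + u j)
  have hL0 : ∀ u, L u 0 = s - ∑ j : Fin (n + 2), ((n + 1 - (j : ℕ)) * t + u j) := fun u => rfl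
  have hL1 : ∀ u j, L u (Fin.succ j) = (n + 1 - (j : ℕ)) * t + u j := fun u j => rfl
  have hLs : ∀ u i, L u i < s + 1 := by
    intro u i
    refine Fin.cases ?_ (fun j => ?_) i
    · rw [hL0]
      omega
    · rw [hL1]
      have := hv u j
      omega
  have hsum : ∀ u, ∑ i, L u i = s := by
    intro u
    rw [Fin.sum_univ_succ]
    simp only [hL0, hL1]
    have := hS u
    omega
  have hanti : ∀ u i j, i ≤ j → L u j ≤ L u i := by
    intro u
    have hA : Antitone (L u) := by
      rw [Fin.antitone_iff_succ_le]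
      intro i
      refine Fin.cases ?_ (fun j => ?_) i
      · show L u (Fin.succ 0) ≤ L u 0
        rw [hL0, hL1]
        have h1 := hS u
        have h2 := hv u 0
        omega
      · show L u (Fin.succ j.succ) ≤ L u (Fin.succ j.castSucc)
        rw [hL1, hL1]
        have h1 : (u j.succ : ℕ) ≤ t := Nat.le_of_lt_succ (u j.succ).2
        have h2 : (j : ℕ) < n + 1 := j.2
        have h3 : n + 1 - (j : ℕ) = (n + 1 - ((j : ℕ) + 1)) + 1 := by omega
        rw [Fin.val_succ, Fin.val_castSucc, h3, Nat.add_mul, Nat.one_mul]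
        omega
    intro i j hij
    exact hA hij
  have h := Finset.card_le_card_of_injOn (s := (Finset.univ : Finset (Fin (n + 2) → Fin (t + 1))))
    (t := Parts (n + 3) s) (fun u i => (⟨L u i, hLs u i⟩ : Fin (s + 1)))
    (by
      intro u _
      rw [Finset.mem_coe, mem_Parts]
      exact ⟨fun i j hij => hanti u i j hij, hsum u⟩)
    (by
      intro u _ u' _ he
      funext j
      have h1 := congrArg Fin.val (congrFun he (Fin.succ j))
      have h2 : L u (Fin.succ j) = L u' (Fin.succ j) := h1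
      rw [hL1, hL1] at h2
      exact Fin.ext (by omega))
  rwa [Finset.card_univ, Fintype.card_fun, Fintype.card_fin, Fintype.card_fin] at h

end CG

open CG

theorem count_gap (n : ℕ) : ∃ K : ℕ, ∀ s G : ℕ, 1 ≤ G →
    s * ((Parts (n + 3) s).filter (fun lam =>
      (∃ i : Fin (n + 2), (lam i.castSucc : ℕ) < lam i.succ + G) ∨
        (lam (Fin.last _) : ℕ) < G)).card ≤ K * G * (Parts (n + 3) s).card := by
  classical
  refine ⟨(n + 3) * ((n + 3) ^ 2) ^ (n + 2), fun s G _ => ?_⟩
  set t := s / (n + 3) ^ 2 with htd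
  have ht : (n + 3) ^ 2 * t ≤ s := Nat.mul_div_le s _
  have ht1 : s + 1 ≤ (n + 3) ^ 2 * (t + 1) := by
    have := Nat.lt_mul_div_succ s (show 0 < (n + 3) ^ 2 by positivity)
    exact this
  have hlow := count_all (n := n) ht
  have hup : ((Parts (n + 3) s).filter (fun lam =>
      (∃ i : Fin (n + 2), (lam i.castSucc : ℕ) < lam i.succ + G) ∨
        (lam (Fin.last _) : ℕ) < G)).card ≤ (n + 3) * (G * (s + 1) ^ (n + 1)) := by
    have hsub : (Parts (n + 3) s).filter (fun lam =>
        (∃ i : Fin (n + 2), (lam i.castSucc : ℕ) < lam i.succ + G) ∨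
          (lam (Fin.last _) : ℕ) < G) ⊆
        (Finset.univ.biUnion fun i : Fin (n + 2) =>
          (Parts (n + 3) s).filter (fun lam => (lam i.castSucc : ℕ) < lam i.succ + G)) ∪
        (Parts (n + 3) s).filter (fun lam => (lam (Fin.last _) : ℕ) < G) := by
      intro lam hlam
      rw [Finset.mem_filter] at hlam
      rw [Finset.mem_union, Finset.mem_biUnion]
      rcases hlam.2 with ⟨i, hi⟩ | h
      · exact Or.inl ⟨i, Finset.mem_univ _, Finset.mem_filter.2 ⟨hlam.1, hi⟩⟩
      · exact Or.inr (Finset.mem_filter.2 ⟨hlam.1, h⟩)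
    refine (Finset.card_le_card hsub).trans ((Finset.card_union_le _ _).trans ?_)
    have h1 : (Finset.univ.biUnion fun i : Fin (n + 2) =>
          (Parts (n + 3) s).filter (fun lam => (lam i.castSucc : ℕ) < lam i.succ + G)).card ≤
        (n + 2) * (G * (s + 1) ^ (n + 1)) := by
      refine Finset.card_biUnion_le.trans ?_
      have := Finset.sum_le_card_nsmul (Finset.univ : Finset (Fin (n + 2)))
        (fun i => ((Parts (n + 3) s).filter
          (fun lam => (lam i.castSucc : ℕ) < lam i.succ + G)).card)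
        (G * (s + 1) ^ (n + 1)) fun i _ => count_mid i
      rwa [Finset.card_univ, Fintype.card_fin, smul_eq_mul] at this
    have h2 : ((Parts (n + 3) s).filter (fun lam => (lam (Fin.last _) : ℕ) < G)).card ≤
        G * (s + 1) ^ (n + 1) := count_last
    have h3 : (n + 3) * (G * (s + 1) ^ (n + 1)) =
        (n + 2) * (G * (s + 1) ^ (n + 1)) + G * (s + 1) ^ (n + 1) := by ring
    omega
  calc s * ((Parts (n + 3) s).filter (fun lam =>
      (∃ i : Fin (n + 2), (lam i.castSucc : ℕ) < lam i.succ + G) ∨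
        (lam (Fin.last _) : ℕ) < G)).card
      ≤ (s + 1) * ((n + 3) * (G * (s + 1) ^ (n + 1))) :=
        Nat.mul_le_mul (Nat.le_succ s) hup
    _ = (n + 3) * G * (s + 1) ^ (n + 2) := by ring
    _ ≤ (n + 3) * G * ((n + 3) ^ 2 * (t + 1)) ^ (n + 2) :=
        Nat.mul_le_mul_left _ (Nat.pow_le_pow_left ht1 _)
    _ = (n + 3) * ((n + 3) ^ 2) ^ (n + 2) * G * (t + 1) ^ (n + 2) := by
        rw [mul_pow]; ring
    _ ≤ (n + 3) * ((n + 3) ^ 2) ^ (n + 2) * G * (Parts (n + 3) s).card :=
        Nat.mul_le_mul_left _ hlow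

end Vale.Agent.P181.FR
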