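import Vale.Agent.P181.R2.H923.FR2
import Vale.Agent.P181.R2.H9.FR3
import Mathlib.LinearAlgebra.Vandermonde
import Mathlib.LinearAlgebra.Matrix.Block

/-! P181.FewRowsInterior, row R4: highest weight vectors from symmetric functions of points.
`gen0`, `genD`, `genE`, `genE2`. -/

set_option autoImplicit false

open scoped TensorProduct

namespace Vale.Agent.P181.FR

open Vale.Agent.P181 Vale.Agent.P181.H280 Vale.Agent.P181.H54 MvPolynomial

namespace Gen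

/-! ### weights -/

theorem wt_smul {m : ℕ} (g : Matrix (Fin m) (Fin m) ℂ) (c i : ℕ) :
    ∏ k, g k k ^ ((c • om m i) k) = (∏ k, g k k ^ om m i k) ^ c := by
  rw [← Finset.prod_pow]
  refine Finset.prod_congr rfl fun k _ => ?_
  rw [Pi.smul_apply, smul_eq_mul, mul_comm, pow_mul]

theorem wt_add {m : ℕ} (g : Matrix (Fin m) (Fin m) ℂ) (u v : Fin m → ℕ) :
    ∏ k, g k k ^ ((u + v) k) = (∏ k, g k k ^ u k) * ∏ k, g k k ^ v k := by
  rw [← Finset.prod_mul_distrib]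
  refine Finset.prod_congr rfl fun k _ => ?_
  rw [Pi.add_apply, pow_add]

/-- Sums over `Fin m` of functions vanishing from `i` on. -/
theorem sum_castLE {M : Type*} [AddCommMonoid M] {i m : ℕ} (him : i ≤ m) (f : Fin m → M)
    (hf : ∀ l : Fin m, i ≤ (l : ℕ) → f l = 0) : ∑ l, f l = ∑ l : Fin i, f (Fin.castLE him l) := by
  have e : ∑ l : Fin i, f (Fin.castLE him l) =
      ∑ x ∈ Finset.univ.map (Fin.castLEEmb him), f x :=
    (Finset.sum_map Finset.univ (Fin.castLEEmb him) f).symm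
  rw [e]
  symm
  refine Finset.sum_subset (Finset.subset_univ _) fun l _ hl => ?_
  refine hf l ?_
  by_contra hc
  refine hl ?_
  rw [Finset.mem_map]
  exact ⟨⟨l, not_le.1 hc⟩, Finset.mem_univ _, Fin.ext rfl⟩

theorem prod_castLE {M : Type*} [CommMonoid M] {i m : ℕ} (him : i ≤ m) (f : Fin m → M)
    (hf : ∀ l : Fin m, i ≤ (l : ℕ) → f l = 1) : ∏ l, f l = ∏ l : Fin i, f (Fin.castLE him l) := by
  have e : ∏ l : Fin i, f (Fin.castLE him l) =
      ∏ x ∈ Finset.univ.map (Fin.castLEEmb him), f x :=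
    (Finset.prod_map Finset.univ (Fin.castLEEmb him) f).symm
  rw [e]
  symm
  refine Finset.prod_subset (Finset.subset_univ _) fun l _ hl => ?_
  refine hf l ?_
  by_contra hc
  refine hl ?_
  rw [Finset.mem_map]
  exact ⟨⟨l, not_le.1 hc⟩, Finset.mem_univ _, Fin.ext rfl⟩

theorem wt_om {i m : ℕ} (him : i ≤ m) (g : Matrix (Fin m) (Fin m) ℂ) :
    ∏ k, g k k ^ om m i k = ∏ k : Fin i, g (Fin.castLE him k) (Fin.castLE him k) := by
  rw [prod_castLE him]
  · refine Finset.prod_congr rfl fun k _ => ?_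
    have : om m i (Fin.castLE him k) = 1 := by
      unfold om
      rw [if_pos]
      exact k.2
    rw [this, pow_one]
  · intro l hl
    have : om m i l = 0 := by
      unfold om
      rw [if_neg (not_lt.2 hl)]
    rw [this, pow_zero]

theorem wt_one {n : ℕ} (g : Matrix (Fin (n + 1)) (Fin (n + 1)) ℂ) :
    ∏ k, g k k ^ om (n + 1) 1 k = g 0 0 := by
  rw [wt_om (by omega : 1 ≤ n + 1), Fin.prod_univ_one]
  rfl

theorem wt_two {n : ℕ} (h2 : 1 < n + 1) (g : Matrix (Fin (n + 1)) (Fin (n + 1)) ℂ) :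
    ∏ k, g k k ^ om (n + 1) 2 k = g 0 0 * g ⟨1, h2⟩ ⟨1, h2⟩ := by
  rw [wt_om (by omega : 2 ≤ n + 1), Fin.prod_univ_two]
  rfl

/-! ### the transformation of coordinates -/

theorem vm_zero {n : ℕ} {g : Matrix (Fin (n + 1)) (Fin (n + 1)) ℂ} (hg : IsBorel g)
    (v : Fin (n + 1) → ℂ) : Matrix.vecMul v g 0 = g 0 0 * v 0 := by
  rw [Matrix.vecMul, dotProduct, Finset.sum_eq_single 0]
  · rw [mul_comm]
  · intro b _ hb
    rw [hg.1 b 0 (Fin.pos_iff_ne_zero.2 hb), mul_zero]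
  · intro h
    exact absurd (Finset.mem_univ _) h

theorem vm_cast {i m : ℕ} (him : i ≤ m) {g : Matrix (Fin m) (Fin m) ℂ} (hg : IsBorel g)
    (v : Fin m → ℂ) (k : Fin i) : Matrix.vecMul v g (Fin.castLE him k) =
      ∑ l : Fin i, v (Fin.castLE him l) * g (Fin.castLE him l) (Fin.castLE him k) := by
  rw [Matrix.vecMul, dotProduct, sum_castLE him]
  intro l hl
  rw [hg.1 l (Fin.castLE him k), mul_zero]
  rw [Fin.lt_def]
  exact lt_of_lt_of_le k.2 hl

theorem vm_one {n : ℕ} (h2 : 1 < n + 1) {g : Matrix (Fin (n + 1)) (Fin (n + 1)) ℂ}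
    (hg : IsBorel g) (v : Fin (n + 1) → ℂ) : Matrix.vecMul v g ⟨1, h2⟩ =
      g 0 ⟨1, h2⟩ * v 0 + g ⟨1, h2⟩ ⟨1, h2⟩ * v ⟨1, h2⟩ := by
  have h := vm_cast (by omega : 2 ≤ n + 1) hg v 1
  rw [Fin.sum_univ_two] at h
  have e0 : Fin.castLE (by omega : 2 ≤ n + 1) 0 = (0 : Fin (n + 1)) := rfl
  have e1 : Fin.castLE (by omega : 2 ≤ n + 1) 1 = (⟨1, h2⟩ : Fin (n + 1)) := rfl
  rw [e0, e1] at h
  rw [h]
  ring

/-! ### powers in `MP` -/

theorem MP_one {B m : ℕ} : (1 : (Fin B → Fin m → ℂ) → ℂ) ∈ MP B m 0 := by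
  refine Submodule.subset_span ⟨fun _ => 1, fun _ => isHomogeneous_one _ _, ?_⟩
  funext p
  rw [Pi.one_apply]
  symm
  refine Finset.prod_eq_one fun j _ => ?_
  rw [map_one]

theorem MP_pow {B m a : ℕ} {G : (Fin B → Fin m → ℂ) → ℂ} (hG : G ∈ MP B m a) (k : ℕ) :
    G ^ k ∈ MP B m (k * a) := by
  induction k with
  | zero =>
    rw [pow_zero, Nat.zero_mul]
    exact MP_one
  | succ k ih =>
    rw [pow_succ, Nat.succ_mul]
    exact MP_mul ih hG

theorem MP_cast {B m a a' : ℕ} {G : (Fin B → Fin m → ℂ) → ℂ} (h : a = a') (hG : G ∈ MP B m a) :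
    G ∈ MP B m a' := h ▸ hG

/-! ### the three building blocks -/

/-- Product of the first coordinates. -/
noncomputable def cX (B n : ℕ) : (Fin B → Fin (n + 1) → ℂ) → ℂ := fun p => ∏ j, p j 0

/-- Determinant of the first `i` coordinates of `i` points. -/
noncomputable def dD {i m : ℕ} (him : i ≤ m) : (Fin i → Fin m → ℂ) → ℂ := fun p =>
  Matrix.det (Matrix.of fun j k : Fin i => p j (Fin.castLE him k))

/-- Product of the `2`-minors of the coordinates `x`, `y`. -/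
noncomputable def pV (i : ℕ) {m : ℕ} (x y : Fin m) : (Fin i → Fin m → ℂ) → ℂ := fun p =>
  ∏ j : Fin i, ∏ k ∈ Finset.Ioi j, (p k x * p j y - p j x * p k y)

theorem cX_MP (B n : ℕ) : cX B n ∈ MP B (n + 1) 1 := MP_coord fun _ => 0

theorem dD_MP {i m : ℕ} (him : i ≤ m) : dD him ∈ MP i m 1 := MP_det _

theorem pV_MP {i m : ℕ} (x y : Fin m) : pV i x y ∈ MP i m (i - 1) := MP_proj x y

theorem cX_sy {B n : ℕ} (σ : Equiv.Perm (Fin B)) (p : Fin B → Fin (n + 1) → ℂ) :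
    cX B n (fun j => p (σ j)) = cX B n p :=
  Equiv.prod_comp σ fun j => p j 0

theorem dD_sy {i m : ℕ} (him : i ≤ m) (σ : Equiv.Perm (Fin i)) (p : Fin i → Fin m → ℂ) :
    dD him (fun j => p (σ j)) = ((Equiv.Perm.sign σ : ℤˣ) : ℤ) * dD him p := by
  have h := Matrix.det_permute σ (Matrix.of fun j k : Fin i => p j (Fin.castLE him k))
  exact h

theorem pV_eq {i m : ℕ} (x y : Fin m) (p : Fin i → Fin m → ℂ) : pV i x y p =
    (Matrix.projVandermonde (fun j => p j x) (fun j => p j y)).det := by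
  rw [Matrix.det_projVandermonde]
  rfl

theorem pV_sy {i m : ℕ} (x y : Fin m) (σ : Equiv.Perm (Fin i)) (p : Fin i → Fin m → ℂ) :
    pV i x y (fun j => p (σ j)) = ((Equiv.Perm.sign σ : ℤˣ) : ℤ) * pV i x y p := by
  rw [pV_eq, pV_eq]
  exact Matrix.det_permute σ (Matrix.projVandermonde (fun j => p j x) (fun j => p j y))

theorem cX_wt {B n : ℕ} {g : Matrix (Fin (n + 1)) (Fin (n + 1)) ℂ} (hg : IsBorel g)
    (p : Fin B → Fin (n + 1) → ℂ) :
    cX B n (fun j => Matrix.vecMul (p j) g) = g 0 0 ^ B * cX B n p := by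
  unfold cX
  simp only [vm_zero hg]
  rw [Finset.prod_mul_distrib, Finset.prod_const, Finset.card_univ, Fintype.card_fin]

theorem dD_wt {i m : ℕ} (him : i ≤ m) {g : Matrix (Fin m) (Fin m) ℂ} (hg : IsBorel g)
    (p : Fin i → Fin m → ℂ) :
    dD him (fun j => Matrix.vecMul (p j) g) = (∏ k, g k k ^ om m i k) * dD him p := by
  have e : (Matrix.of fun j k : Fin i => Matrix.vecMul (p j) g (Fin.castLE him k)) =
      (Matrix.of fun j k : Fin i => p j (Fin.castLE him k)) *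
        g.submatrix (Fin.castLE him) (Fin.castLE him) := by
    ext j k
    rw [Matrix.of_apply, vm_cast him hg, Matrix.mul_apply]
    rfl
  have h2 : (g.submatrix (Fin.castLE him) (Fin.castLE him)).det =
      ∏ k : Fin i, g (Fin.castLE him k) (Fin.castLE him k) := by
    rw [Matrix.det_of_isUpperTriangular]
    · rfl
    · intro j k hjk
      exact hg.1 _ _ hjk
  unfold dD
  rw [e, Matrix.det_mul, h2, ← wt_om him, mul_comm]

theorem pV_wt {i n : ℕ} (h2 : 1 < n + 1) {g : Matrix (Fin (n + 1)) (Fin (n + 1)) ℂ}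
    (hg : IsBorel g) (p : Fin i → Fin (n + 1) → ℂ) :
    pV i 0 ⟨1, h2⟩ (fun j => Matrix.vecMul (p j) g) =
      (g 0 0 * g ⟨1, h2⟩ ⟨1, h2⟩) ^ (i.choose 2) * pV i 0 ⟨1, h2⟩ p := by
  have hc : ∑ j : Fin i, (Finset.Ioi j).card = i.choose 2 := by
    simp only [Fin.card_Ioi]
    rw [Fin.sum_univ_eq_sum_range (fun j => i - 1 - j) i, Finset.sum_range_reflect (fun j => j) i,
      Finset.sum_range_id, Nat.choose_two_right]
  unfold pV
  rw [← hc, ← Finset.prod_pow_eq_pow_sum, ← Finset.prod_mul_distrib]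
  refine Finset.prod_congr rfl fun j _ => ?_
  rw [← Finset.prod_const, ← Finset.prod_mul_distrib]
  refine Finset.prod_congr rfl fun k _ => ?_
  beta_reduce
  rw [vm_zero hg, vm_zero hg, vm_one h2 hg, vm_one h2 hg]
  ring

/-- Points on the moment curve. -/
noncomputable def mom (B m : ℕ) : Fin B → Fin m → ℂ := fun j k => (j : ℂ) ^ (k : ℕ)

theorem cast_inj (i : ℕ) : Function.Injective fun j : Fin i => ((j : ℕ) : ℂ) := by
  intro a b h
  exact Fin.ext (Nat.cast_injective h)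

theorem cX_mom (B n : ℕ) : cX B n (mom B (n + 1)) = 1 := by
  unfold cX mom
  refine Finset.prod_eq_one fun j _ => ?_
  rw [Fin.val_zero, pow_zero]

theorem dD_mom {i m : ℕ} (him : i ≤ m) : dD him (mom i m) ≠ 0 :=
  Matrix.det_vandermonde_ne_zero_iff.2 (cast_inj i)

theorem pV_mom {i n : ℕ} (h2 : 1 < n + 1) : pV i 0 ⟨1, h2⟩ (mom i (n + 1)) ≠ 0 := by
  unfold pV mom
  refine Finset.prod_ne_zero_iff.2 fun j _ => Finset.prod_ne_zero_iff.2 fun k hk => ?_
  rw [Fin.val_zero, pow_zero, pow_zero, one_mul, one_mul]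
  simp only [pow_one]
  rw [sub_ne_zero]
  intro h
  have := cast_inj i h
  rw [Finset.mem_Ioi, this] at hk
  exact lt_irrefl _ hk

theorem sign_even {i p : ℕ} (σ : Equiv.Perm (Fin i)) (hp : Even p) :
    (((Equiv.Perm.sign σ : ℤˣ) : ℤ) : ℂ) ^ p = 1 := by
  rcases Int.units_eq_one_or (Equiv.Perm.sign σ) with h | h
  · rw [h]; simp
  · rw [h]; simp [hp.neg_one_pow]

end Gen

open Gen

/-! ### the generators -/

theorem gen0 {a n : ℕ} : Pos 1 a (n + 1) (a • om (n + 1) 1) := by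
  refine realize (cX 1 n ^ a) (MP_cast (Nat.mul_one a) (MP_pow (cX_MP 1 n) a)) ?_ ?_ ?_
  · intro σ p
    rw [Pi.pow_apply, Pi.pow_apply, cX_sy]
  · intro g hg p
    rw [Pi.pow_apply, Pi.pow_apply, cX_wt hg, wt_smul, wt_one, mul_pow, pow_one]
  · intro h
    have := congrFun h (mom 1 (n + 1))
    rw [Pi.pow_apply, cX_mom, one_pow] at this
    exact one_ne_zero this

theorem genD {i p a n : ℕ} (hi : 1 ≤ i) (him : i ≤ n + 1) (hp : Even p) (hpa : p ≤ a) :
    Pos i a (n + 1) (p • om (n + 1) i + (i * (a - p)) • om (n + 1) 1) := by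
  have _ := hi
  refine realize (dD him ^ p * cX i n ^ (a - p)) (MP_cast (by omega)
    (MP_mul (MP_pow (dD_MP him) p) (MP_pow (cX_MP i n) (a - p)))) ?_ ?_ ?_
  · intro σ q
    rw [Pi.mul_apply, Pi.mul_apply, Pi.pow_apply, Pi.pow_apply, Pi.pow_apply, Pi.pow_apply, cX_sy,
      dD_sy, mul_pow, sign_even σ hp, one_mul]
  · intro g hg q
    rw [Pi.mul_apply, Pi.mul_apply, Pi.pow_apply, Pi.pow_apply, Pi.pow_apply, Pi.pow_apply,
      cX_wt hg, dD_wt him hg, wt_add, wt_smul, wt_smul, wt_one, mul_pow, mul_pow, ← pow_mul]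
    ring
  · intro h
    have := congrFun h (mom i (n + 1))
    rw [Pi.mul_apply, Pi.pow_apply, Pi.pow_apply, cX_mom, one_pow, mul_one] at this
    exact pow_ne_zero _ (dD_mom him) this

theorem genE {i a n : ℕ} (hi : 3 ≤ i) (him : i ≤ n + 1) (hia : i ≤ a) :
    Pos i a (n + 1) (om (n + 1) i + (i.choose 2) • om (n + 1) 2 + (i * (a - i)) • om (n + 1) 1) := by
  have h2 : 1 < n + 1 := by omega
  refine realize (dD him * pV i 0 ⟨1, h2⟩ * cX i n ^ (a - i)) (MP_cast (by omega)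
    (MP_mul (MP_mul (dD_MP him) (pV_MP 0 ⟨1, h2⟩)) (MP_pow (cX_MP i n) (a - i)))) ?_ ?_ ?_
  · intro σ q
    rw [Pi.mul_apply, Pi.mul_apply, Pi.mul_apply, Pi.mul_apply, Pi.pow_apply, Pi.pow_apply, cX_sy,
      dD_sy, pV_sy]
    have h1 := sign_even σ (even_two : Even 2)
    linear_combination (dD him q * pV i 0 ⟨1, h2⟩ q * cX i n q ^ (a - i)) * h1
  · intro g hg q
    rw [Pi.mul_apply, Pi.mul_apply, Pi.mul_apply, Pi.mul_apply, Pi.pow_apply, Pi.pow_apply,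
      cX_wt hg, dD_wt him hg, pV_wt h2 hg, wt_add, wt_add, wt_smul, wt_smul, wt_one, wt_two h2,
      mul_pow, mul_pow, ← pow_mul]
    ring
  · intro h
    have := congrFun h (mom i (n + 1))
    rw [Pi.mul_apply, Pi.mul_apply, Pi.pow_apply, cX_mom, one_pow, mul_one] at this
    exact mul_ne_zero (dD_mom him) (pV_mom h2) this

namespace Gen

/-- `y_c` times the other `x_j`, for three points. -/
noncomputable def eE {n : ℕ} (h2 : 1 < n + 1) (c : Fin 3) : (Fin 3 → Fin (n + 1) → ℂ) → ℂ :=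
  fun p => ∏ j, p j (if j = c then ⟨1, h2⟩ else 0)

/-- `2 Y_c - Y_d - Y_e`. -/
noncomputable def fF {n : ℕ} (h2 : 1 < n + 1) (c : Fin 3) : (Fin 3 → Fin (n + 1) → ℂ) → ℂ :=
  (3 : ℂ) • eE h2 c - ∑ d, eE h2 d

theorem fF_MP {n : ℕ} (h2 : 1 < n + 1) (c : Fin 3) : fF h2 c ∈ MP 3 (n + 1) 1 := by
  unfold fF
  refine Submodule.sub_mem _ (Submodule.smul_mem _ _ (MP_coord _)) ?_
  exact Submodule.sum_mem _ fun d _ => MP_coord _

theorem fF_apply {n : ℕ} (h2 : 1 < n + 1) (c : Fin 3) (p : Fin 3 → Fin (n + 1) → ℂ) :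
    fF h2 c p = 3 * eE h2 c p - ∑ d, eE h2 d p := by
  unfold fF
  rw [Pi.sub_apply, Pi.smul_apply, smul_eq_mul, Finset.sum_apply]

theorem eE_sy {n : ℕ} (h2 : 1 < n + 1) (c : Fin 3) (σ : Equiv.Perm (Fin 3))
    (p : Fin 3 → Fin (n + 1) → ℂ) : eE h2 c (fun j => p (σ j)) = eE h2 (σ c) p := by
  refine Eq.trans ?_ (Equiv.prod_comp σ fun j => p j (if j = σ c then ⟨1, h2⟩ else 0))
  unfold eE
  refine Finset.prod_congr rfl fun j _ => ?_
  simp only [σ.injective.eq_iff]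

theorem fF_sy {n : ℕ} (h2 : 1 < n + 1) (c : Fin 3) (σ : Equiv.Perm (Fin 3))
    (p : Fin 3 → Fin (n + 1) → ℂ) : fF h2 c (fun j => p (σ j)) = fF h2 (σ c) p := by
  rw [fF_apply, fF_apply, eE_sy]
  simp only [eE_sy]
  rw [Equiv.sum_comp σ fun d => eE h2 d p]

theorem eE_wt {n : ℕ} (h2 : 1 < n + 1) (c : Fin 3) {g : Matrix (Fin (n + 1)) (Fin (n + 1)) ℂ}
    (hg : IsBorel g) (p : Fin 3 → Fin (n + 1) → ℂ) :
    eE h2 c (fun j => Matrix.vecMul (p j) g) =
      g 0 0 ^ 2 * (g 0 ⟨1, h2⟩ * (p 0 0 * p 1 0 * p 2 0) + g ⟨1, h2⟩ ⟨1, h2⟩ * eE h2 c p) := by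
  unfold eE
  fin_cases c
  · simp [Fin.prod_univ_three, vm_zero hg, vm_one h2 hg]
    ring
  · simp [Fin.prod_univ_three, vm_zero hg, vm_one h2 hg]
    ring
  · simp [Fin.prod_univ_three, vm_zero hg, vm_one h2 hg]
    ring

theorem fF_wt {n : ℕ} (h2 : 1 < n + 1) (c : Fin 3) {g : Matrix (Fin (n + 1)) (Fin (n + 1)) ℂ}
    (hg : IsBorel g) (p : Fin 3 → Fin (n + 1) → ℂ) :
    fF h2 c (fun j => Matrix.vecMul (p j) g) =
      (g 0 0 ^ 2 * g ⟨1, h2⟩ ⟨1, h2⟩) * fF h2 c p := by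
  rw [fF_apply, fF_apply, eE_wt h2 c hg]
  simp only [eE_wt h2 _ hg]
  rw [Fin.sum_univ_three, Fin.sum_univ_three]
  ring

theorem eE_pt {n : ℕ} (h2 : 1 < n + 1) (c : Fin 3) (y : Fin 3 → ℂ) :
    eE h2 c (fun j k => if k = 0 then 1 else y j) = y c := by
  unfold eE
  rw [Finset.prod_eq_single c]
  · beta_reduce
    rw [if_pos rfl, if_neg]
    intro h
    exact one_ne_zero (congrArg Fin.val h)
  · intro j _ hj
    beta_reduce
    rw [if_neg hj, if_pos rfl]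
  · intro h
    exact absurd (Finset.mem_univ _) h

theorem cX_pt {n : ℕ} (y : Fin 3 → ℂ) :
    cX 3 n (fun j k => if k = 0 then 1 else y j) = 1 := by
  unfold cX
  refine Finset.prod_eq_one fun j _ => ?_
  beta_reduce
  rw [if_pos rfl]

end Gen

open Gen

theorem genE2 {a n : ℕ} (hn : 1 ≤ n) (ha : 3 ≤ a) :
    Pos 3 a (n + 1) (3 • om (n + 1) 2 + (3 * a - 6) • om (n + 1) 1) := by
  have h2 : 1 < n + 1 := by omega
  have hM : (fF h2 0 * fF h2 1 * fF h2 2) * cX 3 n ^ (a - 3) ∈ MP 3 (n + 1) a :=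
    MP_cast (by omega) (MP_mul (MP_mul (MP_mul (fF_MP h2 0) (fF_MP h2 1)) (fF_MP h2 2))
      (MP_pow (cX_MP 3 n) (a - 3)))
  refine realize _ hM ?_ ?_ ?_
  · intro σ q
    have e : ∀ r : Fin 3 → Fin (n + 1) → ℂ,
        fF h2 0 r * fF h2 1 r * fF h2 2 r = ∏ c, fF h2 c r := fun r =>
      (Fin.prod_univ_three fun c => fF h2 c r).symm
    rw [Pi.mul_apply, Pi.mul_apply, Pi.mul_apply, Pi.mul_apply, Pi.mul_apply, Pi.mul_apply,
      Pi.pow_apply, Pi.pow_apply, cX_sy, e, e]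
    simp only [fF_sy]
    rw [Equiv.prod_comp σ fun c => fF h2 c q]
  · intro g hg q
    rw [Pi.mul_apply, Pi.mul_apply, Pi.mul_apply, Pi.mul_apply, Pi.mul_apply, Pi.mul_apply,
      Pi.pow_apply, Pi.pow_apply, cX_wt hg, fF_wt h2 0 hg, fF_wt h2 1 hg, fF_wt h2 2 hg, wt_add,
      wt_smul, wt_smul, wt_one, wt_two h2]
    obtain ⟨k, rfl⟩ : ∃ k, a = k + 3 := ⟨a - 3, by omega⟩
    rw [show k + 3 - 3 = k by omega, show 3 * (k + 3) - 6 = 3 * k + 3 by omega]
    ring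
  · intro h
    have h3 := congrFun h (fun j k => if k = 0 then 1 else (![0, 1, 3] : Fin 3 → ℂ) j)
    rw [Pi.mul_apply, Pi.mul_apply, Pi.mul_apply, Pi.pow_apply, Pi.zero_apply, cX_pt, one_pow,
      mul_one, fF_apply, fF_apply, fF_apply] at h3
    simp only [eE_pt] at h3
    rw [Fin.sum_univ_three] at h3
    have v0 : (![0, 1, 3] : Fin 3 → ℂ) 0 = 0 := rfl
    have v1 : (![0, 1, 3] : Fin 3 → ℂ) 1 = 1 := rfl
    have v2 : (![0, 1, 3] : Fin 3 → ℂ) 2 = 3 := rfl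
    rw [v0, v1, v2] at h3
    norm_num at h3

end Vale.Agent.P181.FR
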