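import Vale.Agent.P181.R2.H182.VDefs
import Vale.Agent.P181.R2.H182.PtMul

/-! Row V7: `Sym^B(Sym^c)` and the invariants of `Sym^B(Sym^(3 m c + N0))`. -/

set_option autoImplicit false

open scoped TensorProduct

namespace Vale.Agent.P181.VT

open Vale.Agent.P181 Vale.Agent.P181.H280 Vale.Agent.P181.H54 Vale.Agent.P181.FR MvPolynomial

namespace V7h

theorem finrank_le_mul {V W : Type} [AddCommMonoid V] [Module ℂ V] [AddCommMonoid W] [Module ℂ W]
    [Module.Finite ℂ W] (S : Submodule ℂ W) (M : ℕ) (L : Fin M → V →ₗ[ℂ] W)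
    (hS : ∀ l x, L l x ∈ S) (hinj : ∀ x, (∀ l, L l x = 0) → x = 0) :
    Module.finrank ℂ V ≤ M * Module.finrank ℂ S := by
  letI := Module.addCommMonoidToAddCommGroup ℂ (M := V)
  letI := Module.addCommMonoidToAddCommGroup ℂ (M := W)
  let Φ : V →ₗ[ℂ] (Fin M → S) := LinearMap.pi fun l => (L l).codRestrict S (hS l)
  have hΦ : Function.Injective Φ := by
    rw [injective_iff_map_eq_zero]
    intro x hx
    refine hinj x fun l => ?_
    have h1 := congrFun hx l
    have h2 : (L l).codRestrict S (hS l) x = 0 := h1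
    have h3 := congrArg Subtype.val h2
    exact h3
  have h := LinearMap.finrank_le_finrank_of_injective hΦ
  rw [Module.finrank_pi_fintype, Finset.sum_const, Finset.card_univ, Fintype.card_fin,
    smul_eq_mul] at h
  exact h

/-- The function of a family of functions of the blocks. -/
noncomputable def BP {n k m : ℕ} (f : Fin k → (Fin n → Fin m → ℂ) → ℂ) :
    (Fin (k * n) → Fin m → ℂ) → ℂ := fun p => ∏ β, f β (pt p β)

theorem BP_update {n k m : ℕ} (f : Fin k → (Fin n → Fin m → ℂ) → ℂ) (b : Fin k)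
    (G : (Fin n → Fin m → ℂ) → ℂ) (p : Fin (k * n) → Fin m → ℂ) :
    BP (Function.update f b G) p = G (pt p b) * ∏ β ∈ Finset.univ.erase b, f β (pt p β) := by
  classical
  unfold BP
  rw [← Finset.mul_prod_erase Finset.univ _ (Finset.mem_univ b), Function.update_self]
  congr 1
  refine Finset.prod_congr rfl fun β hβ => ?_
  rw [Function.update_of_ne (Finset.ne_of_mem_erase hβ)]

theorem BP_gen {n k m a : ℕ} (f : Fin k → (Fin n → Fin m → ℂ) → ℂ)
    (hf : ∀ β, f β ∈ {G | ∃ q : Fin n → MvPolynomial (Fin m) ℂ, (∀ j, (q j).IsHomogeneous a) ∧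
      G = fun p => ∏ j, eval (p j) (q j)}) : BP f ∈ MP (k * n) m a := by
  choose q hq hf using hf
  refine Submodule.subset_span ⟨fun j => q (finProdFinEquiv.symm j).1 (finProdFinEquiv.symm j).2,
    fun j => hq _ _, ?_⟩
  funext p
  unfold BP
  rw [← finProdFinEquiv.prod_comp, Fintype.prod_prod_type]
  refine Finset.prod_congr rfl fun β _ => ?_
  rw [hf β]
  refine Finset.prod_congr rfl fun s _ => ?_
  beta_reduce
  rw [Equiv.symm_apply_apply]
  rfl

theorem BP_mem {n k m a : ℕ} (s : Finset (Fin k)) : ∀ (f : Fin k → (Fin n → Fin m → ℂ) → ℂ),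
    (∀ β ∈ s, f β ∈ MP n m a) →
    (∀ β, β ∉ s → f β ∈ {G | ∃ q : Fin n → MvPolynomial (Fin m) ℂ,
      (∀ j, (q j).IsHomogeneous a) ∧ G = fun p => ∏ j, eval (p j) (q j)}) →
    BP f ∈ MP (k * n) m a := by
  classical
  induction s using Finset.induction_on with
  | empty => exact fun f _ h => BP_gen f fun β => h β (Finset.notMem_empty β)
  | insert b s hb ih =>
    intro f h1 h2
    have key : ∀ G ∈ MP n m a, BP (Function.update f b G) ∈ MP (k * n) m a := by
      intro G hG
      induction hG using Submodule.span_induction with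
      | mem G hG =>
        refine ih _ (fun β hβ => ?_) fun β hβ => ?_
        · have hne : β ≠ b := fun h => hb (h ▸ hβ)
          rw [Function.update_of_ne hne]
          exact h1 β (Finset.mem_insert_of_mem hβ)
        · by_cases hne : β = b
          · subst hne
            rw [Function.update_self]
            exact hG
          · rw [Function.update_of_ne hne]
            exact h2 β fun h => (Finset.mem_insert.1 h).elim hne hβ
      | zero =>
        have h : BP (Function.update f b (0 : (Fin n → Fin m → ℂ) → ℂ)) = 0 := by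
          funext p
          rw [BP_update, Pi.zero_apply, zero_mul]
          rfl
        rw [h]
        exact Submodule.zero_mem _
      | add G H _ _ h h' =>
        have e : BP (Function.update f b (G + H)) =
            BP (Function.update f b G) + BP (Function.update f b H) := by
          funext p
          rw [Pi.add_apply, BP_update, BP_update, BP_update, Pi.add_apply, add_mul]
        rw [e]
        exact Submodule.add_mem _ h h'
      | smul c G _ h =>
        have e : BP (Function.update f b (c • G)) = c • BP (Function.update f b G) := by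
          funext p
          rw [Pi.smul_apply, BP_update, BP_update, Pi.smul_apply, smul_eq_mul, smul_eq_mul,
            mul_assoc]
        rw [e]
        exact Submodule.smul_mem _ _ h
    have h := key (f b) (h1 b (Finset.mem_insert_self _ _))
    rwa [Function.update_eq_self] at h

theorem QQ_MP {r k N0 : ℕ} {q : (Fin (nn r) → Fin (r + 1) → ℂ) → ℂ}
    (hq : q ∈ MP (nn r) (r + 1) N0) :
    (QQ q : (Fin (k * nn r) → Fin (r + 1) → ℂ) → ℂ) ∈ MP (k * nn r) (r + 1) N0 :=
  BP_mem Finset.univ (fun _ => q) (fun _ _ => hq) fun β h => absurd (Finset.mem_univ β) h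

theorem wt_smul {m : ℕ} (g : Matrix (Fin m) (Fin m) ℂ) (c i : ℕ) :
    ∏ k, g k k ^ ((c • om m i) k) = (∏ k, g k k ^ om m i k) ^ c := by
  rw [← Finset.prod_pow]
  refine Finset.prod_congr rfl fun k _ => ?_
  rw [Pi.smul_apply, smul_eq_mul, mul_comm, pow_mul]

theorem QQ_HWF {r k N1 : ℕ} {q : (Fin (nn r) → Fin (r + 1) → ℂ) → ℂ}
    (hq : HWF (nn r) (r + 1) (N1 • om (r + 1) (r + 1)) q) :
    HWF (k * nn r) (r + 1) ((k * N1) • om (r + 1) (r + 1))
      (QQ q : (Fin (k * nn r) → Fin (r + 1) → ℂ) → ℂ) := by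
  intro g hg p
  have h1 : ∀ β : Fin k, q (pt (fun j => Matrix.vecMul (p j) g) β) =
      (∏ i, g i i ^ (N1 • om (r + 1) (r + 1)) i) * q (pt p β) := fun β => hq g hg (pt p β)
  unfold QQ
  rw [Finset.prod_congr rfl fun β _ => h1 β, Finset.prod_mul_distrib, Finset.prod_const,
    Finset.card_univ, Fintype.card_fin, wt_smul, wt_smul, ← pow_mul, Nat.mul_comm N1 k]

theorem TH_add {r k N : ℕ} (τ : Fin N → Fin k → ℂ) (α : Fin N → ℂ)
    (H : Matrix (Fin (r + 1)) (Fin (r + 1)) ℂ) (F G : (Fin (k * nn r) → Fin (r + 1) → ℂ) → ℂ)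
    (p : Fin (k * nn r) → Fin (r + 1) → ℂ) :
    TH τ α H (fun p => F p + G p) p = TH τ α H F p + TH τ α H G p := by
  unfold TH
  rw [← Finset.sum_add_distrib]
  exact Finset.sum_congr rfl fun i _ => mul_add _ _ _

theorem TH_smul {r k N : ℕ} (τ : Fin N → Fin k → ℂ) (α : Fin N → ℂ)
    (H : Matrix (Fin (r + 1)) (Fin (r + 1)) ℂ) (t : ℂ)
    (F : (Fin (k * nn r) → Fin (r + 1) → ℂ) → ℂ) (p : Fin (k * nn r) → Fin (r + 1) → ℂ) :
    TH τ α H (fun p => t * F p) p = t * TH τ α H F p := by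
  unfold TH
  rw [Finset.mul_sum]
  exact Finset.sum_congr rfl fun i _ => by ring

end V7h

open V7h

/-- V7 from V1, V2, V3, V4, V6. -/
theorem v7_of
    (h1 : ∀ k e : ℕ, ∃ (N : ℕ) (τ : Fin N → Fin k → ℂ) (α : Fin N → ℂ), Polar k e τ α)
    (h2 : ∀ {r k c N : ℕ} (τ : Fin N → Fin k → ℂ) (α : Fin N → ℂ),
      Polar k (nn r * c) τ α → ∀ (H : Matrix (Fin (r + 1)) (Fin (r + 1)) ℂ)
      (F : (Fin (k * nn r) → Fin (r + 1) → ℂ) → ℂ), F ∈ MP (k * nn r) (r + 1) c →
      TH τ α H F ∈ MP (k * nn r) (r + 1) (3 * (r + 1) * c))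
    (h3 : ∀ {r k c N : ℕ} (τ : Fin N → Fin k → ℂ) (α : Fin N → ℂ)
      (H : Matrix (Fin (r + 1)) (Fin (r + 1)) ℂ)
      (F : (Fin (k * nn r) → Fin (r + 1) → ℂ) → ℂ), F ∈ MP (k * nn r) (r + 1) c →
      HWF (k * nn r) (r + 1) ((3 * (k * nn r * c)) • om (r + 1) (r + 1)) (TH τ α H F))
    (h4 : ∀ r : ℕ, 1 ≤ r → ∃ (N0 N1 : ℕ) (q : (Fin (nn r) → Fin (r + 1) → ℂ) → ℂ)
      (z : Fin (nn r) → Fin (r + 1) → ℂ), SepQ r N0 N1 q z)
    (h6 : ∀ {r k c N N0 N1 : ℕ} (τ : Fin N → Fin k → ℂ) (α : Fin N → ℂ)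
      (q : (Fin (nn r) → Fin (r + 1) → ℂ) → ℂ) (z : Fin (nn r) → Fin (r + 1) → ℂ),
      Polar k (nn r * c) τ α → SepQ r N0 N1 q z →
      ∃ (M : ℕ) (H : Fin M → Matrix (Fin (r + 1)) (Fin (r + 1)) ℂ),
        M ≤ (k * nn r * c + 1) ^ ((r + 1) * (r + 1)) ∧
        ∀ F ∈ MP (k * nn r) (r + 1) c, F ≠ 0 →
          (∀ (σ : Equiv.Perm (Fin (k * nn r))) (p : Fin (k * nn r) → Fin (r + 1) → ℂ),
            F (fun j => p (σ j)) = F p) →
          ∃ (l : Fin M) (p : Fin (k * nn r) → Fin (r + 1) → ℂ),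
            ∑ σ : Equiv.Perm (Fin (k * nn r)),
              QQ q (fun j => p (σ j)) * TH τ α (H l) F (fun j => p (σ j)) ≠ 0) :
    ∀ r : ℕ, 1 ≤ r → ∃ N0 N1 : ℕ, ∀ k c : ℕ,
      Module.finrank ℂ (Pleth (k * nn r) c (r + 1)) ≤
        (k * nn r * c + 1) ^ ((r + 1) * (r + 1)) *
          plethMult (k * nn r) (3 * (r + 1) * c + N0) (r + 1)
            ((3 * (k * nn r * c) + k * N1) • om (r + 1) (r + 1)) := by
  intro r hr
  obtain ⟨N0, N1, q, z, hz⟩ := h4 r hr
  refine ⟨N0, N1, fun k c => ?_⟩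
  obtain ⟨N, τ, α, hP⟩ := h1 k (nn r * c)
  obtain ⟨M, H, hM, hinj⟩ := h6 τ α q z hP hz
  set B := k * nn r with hB
  set d := 3 * (r + 1) * c + N0 with hd
  have hex : ∀ (l : Fin M) (x : Pleth B c (r + 1)), ∃ y : Pleth B d (r + 1), ∀ p,
      ptv y p = ∑ σ : Equiv.Perm (Fin B), TH τ α (H l) (fun p => ptv x p) (fun j => p (σ j)) *
        QQ q (fun j => p (σ j)) := by
    intro l x
    obtain ⟨y, hy⟩ := exists_ptv _ (MP_mul (h2 τ α hP (H l) _ (ptv_mem x)) (QQ_MP (k := k) hz.1))
    exact ⟨y, hy⟩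
  choose f hf using hex
  let L : Fin M → (Pleth B c (r + 1) →ₗ[ℂ] Pleth B d (r + 1)) := fun l =>
    { toFun := f l
      map_add' := by
        intro x y
        apply ptv_sep
        intro p
        rw [hf, ptv_add, hf, hf, ← Finset.sum_add_distrib]
        refine Finset.sum_congr rfl fun σ _ => ?_
        rw [← add_mul, ← TH_add]
        simp only [ptv_add]
      map_smul' := by
        intro t x
        apply ptv_sep
        intro p
        rw [RingHom.id_apply, hf, ptv_smul, hf, Finset.mul_sum]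
        refine Finset.sum_congr rfl fun σ _ => ?_
        rw [← mul_assoc, ← TH_smul]
        simp only [ptv_smul] }
  have hL : ∀ l x p, ptv (L l x) p = ∑ σ : Equiv.Perm (Fin B),
      TH τ α (H l) (fun p => ptv x p) (fun j => p (σ j)) * QQ q (fun j => p (σ j)) :=
    fun l x p => hf l x p
  have hmem : ∀ l x, L l x ∈ hwSpace ((3 * (k * nn r * c) + k * N1) • om (r + 1) (r + 1))
      (plethAct B d (r + 1)) := by
    intro l x g hg
    apply ptv_sep
    intro p
    rw [ptv_act, ptv_smul, hL, hL, Finset.mul_sum]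
    refine Finset.sum_congr rfl fun σ _ => ?_
    have e1 := h3 τ α (H l) (fun p => ptv x p) (ptv_mem x) g hg (fun j => p (σ j))
    have e2 := QQ_HWF (k := k) hz.2.1 g hg (fun j => p (σ j))
    rw [wt_smul] at e1 e2
    rw [wt_smul, pow_add]
    calc TH τ α (H l) (fun p => ptv x p) (fun j => Matrix.vecMul (p (σ j)) g) *
          QQ q (fun j => Matrix.vecMul (p (σ j)) g) = _ := by
            rw [e1, e2]
      _ = _ := by ring
  have hker : ∀ x, (∀ l, L l x = 0) → x = 0 := by
    intro x hx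
    by_contra hne
    have hF : (fun p => ptv x p) ≠ 0 := by
      intro h0
      apply hne
      apply ptv_sep
      intro p
      rw [ptv_zero]
      exact congrFun h0 p
    obtain ⟨l, p, hlp⟩ := hinj _ (ptv_mem x) hF fun σ p => ptv_perm x σ p
    apply hlp
    have h0 := hL l x p
    rw [hx l, ptv_zero] at h0
    rw [h0]
    exact Finset.sum_congr rfl fun σ _ => mul_comm _ _
  have _inst : Module.Finite ℂ (Pleth B d (r + 1)) :=
    inferInstanceAs (Module.Finite ℂ (Sym[ℂ]^B (Sym[ℂ]^d (Fin (r + 1) → ℂ))))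
  have key := finrank_le_mul
    (hwSpace ((3 * (k * nn r * c) + k * N1) • om (r + 1) (r + 1)) (plethAct B d (r + 1)))
    M L hmem hker
  exact key.trans (Nat.mul_le_mul_right _ hM)

end Vale.Agent.P181.VT
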